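import Vale.Agent.P207.N4.Dim
import Vale.Agent.P207.N5.H58.Pic
import Vale.Agent.P207.N4.H469.Sm

/-!
# P207, line N5, row ALT (helper467)

If the S-bundle is everything, then the stable subspaces are smooth along the unstable leaves
(`SmoothAlt`): by the dichotomy of `H469` it is enough to see one smooth piece.
-/

set_option maxSynthPendingDepth 3

open Set Filter Topology Metric MeasureTheory
open scoped ContDiff

noncomputable section

namespace Vale.Agent.P207.N4.V.H467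

open Vale.Agent.P207.N3 Vale.Agent.P207.N4

variable [Dim]

/-- an operator all of whose pairings are smooth is smooth -/
theorem contDiffOn_of_pr {W : Type} [NormedAddCommGroup W] [NormedSpace ℝ W] {n : WithTop ℕ∞}
    {N : W → E2 →L[ℝ] E2} {S : Set W}
    (h : ∀ s : E2 →L[ℝ] E2, ContDiffOn ℝ n (fun q => Pic.pr (N q) s) S) : ContDiffOn ℝ n N S := by
  rw [contDiffOn_clm_apply]
  intro v
  rw [contDiffOn_euclidean]
  intro i
  refine (h ((EuclideanSpace.proj (𝕜 := ℝ) i).smulRight v)).congr fun q _ => ?_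
  have h1 : ((N q ∘L (EuclideanSpace.proj (𝕜 := ℝ) i).smulRight v : E2 →L[ℝ] E2) : E2 →ₗ[ℝ] E2)
      = ((EuclideanSpace.proj (𝕜 := ℝ) i : E2 →L[ℝ] ℝ) : E2 →ₗ[ℝ] ℝ).smulRight (N q v) := by
    ext w j
    simp
  rw [Pic.pr, h1, LinearMap.trace_smulRight]
  rfl

/-- a tensor is smooth if it is smooth in another coordinate -/
theorem contDiffOn_of_conj {g : E2 → E2} {N Nq : E2 → E2 →L[ℝ] E2} {O W : Set E2} (hO : IsOpen O)
    (hg : ContDiffOn ℝ ∞ g O) (hi : ∀ u ∈ O, (fderiv ℝ g u).IsInvertible)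
    (hm : MapsTo g O W) (hN : ContDiffOn ℝ ∞ Nq W)
    (he : ∀ u ∈ O, Nq (g u)
      = fderiv ℝ g u ∘L N u ∘L ContinuousLinearMap.adjoint (fderiv ℝ g u)) :
    ContDiffOn ℝ ∞ N O := by
  have hI : ContDiffOn ℝ ∞ (fun u => (fderiv ℝ g u).inverse) O := by
    intro u hu
    have h1 : ContDiffAt ℝ ∞ (fderiv ℝ g) u :=
      (hg.contDiffAt (hO.mem_nhds hu)).fderiv_right (by simp)
    exact ((hi u hu).contDiffAt_map_inverse.comp u h1).contDiffWithinAt
  have hS : ContDiffOn ℝ ∞ (fun u => star (fderiv ℝ g u).inverse) O :=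
    (ContinuousLinearMap.contDiff ((starL' ℝ : (E2 →L[ℝ] E2) ≃L[ℝ] (E2 →L[ℝ] E2)) :
      (E2 →L[ℝ] E2) →L[ℝ] (E2 →L[ℝ] E2))).comp_contDiffOn hI
  have hq : ContDiffOn ℝ ∞ (fun u => Nq (g u)) O := hN.comp hg hm
  refine ((hI.clm_comp hq).clm_comp hS).congr fun u hu => ?_
  obtain ⟨e, hee⟩ := hi u hu
  have h1 : (fderiv ℝ g u).inverse ∘L fderiv ℝ g u = ContinuousLinearMap.id ℝ E2 := by
    rw [← hee, ContinuousLinearMap.inverse_equiv]
    ext v
    simp
  have h2 : ContinuousLinearMap.adjoint (fderiv ℝ g u)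
      ∘L ContinuousLinearMap.adjoint (fderiv ℝ g u).inverse = ContinuousLinearMap.id ℝ E2 := by
    rw [← ContinuousLinearMap.adjoint_comp, h1, ContinuousLinearMap.adjoint_id]
  rw [ContinuousLinearMap.star_eq_adjoint, he u hu]
  refine ContinuousLinearMap.ext fun v => ?_
  have e1 : ∀ w, (fderiv ℝ g u).inverse (fderiv ℝ g u w) = w := fun w => DFunLike.congr_fun h1 w
  have e2 : ContinuousLinearMap.adjoint (fderiv ℝ g u)
      (ContinuousLinearMap.adjoint (fderiv ℝ g u).inverse v) = v := DFunLike.congr_fun h2 v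
  show N u v = (fderiv ℝ g u).inverse (fderiv ℝ g u (N u (ContinuousLinearMap.adjoint
    (fderiv ℝ g u) (ContinuousLinearMap.adjoint (fderiv ℝ g u).inverse v))))
  rw [e2, e1]

variable {Γ X B : Type} [Group Γ] [MetricSpace X] [ProperSpace X] [MulAction Γ X]
  [IsIsometricSMul Γ X] [TopologicalSpace B] [CompactSpace B] [T2Space B] [MulAction Γ B]
  [ContinuousConstSMul Γ B]

theorem dsc_ch {L : Leaf Γ X B} (F : Aff L) (x : X) {u : E2} (hu : u ∈ closedBall (0 : E2) 3) :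
    F.dsc x (F.ch x (L.e x u)) = u := by
  rw [Aff.dsc, F.pt_ch x _ (L.e_ne x u hu)]
  exact (L.e_inj x).leftInvOn_invFunOn hu

theorem ch_zero {L : Leaf Γ X B} (F : Aff L) (x : X) : F.ch x (L.e x 0) = 0 := by
  rw [L.e_zero, ← F.pt_zero, F.ch_pt]

theorem ch_smooth {L : Leaf Γ X B} (F : Aff L) (x : X) :
    ContDiffOn ℝ ∞ (fun u => F.ch x (L.e x u)) (ball 0 3) := by
  refine (F.jc.smooth x).mono fun u hu => ?_
  exact ⟨mem_univ _, hu⟩

/-- the smooth piece -/
theorem piece {L : Leaf Γ X B} (F : Aff L) (T : Tens L) (x : X)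
    (hN : ContDiffOn ℝ ∞ (F.Na T x) (ball 0 1)) : ∃ O : Set E2, IsOpen O ∧ O ⊆ ball 0 3 ∧
      O.Nonempty ∧ ContDiffOn ℝ ∞ (T.N x) O := by
  have hgs := ch_smooth F x
  have hO : IsOpen (ball 0 3 ∩ (fun u => F.ch x (L.e x u)) ⁻¹' ball 0 1) :=
    hgs.continuousOn.isOpen_inter_preimage isOpen_ball isOpen_ball
  refine ⟨_, hO, inter_subset_left, ⟨0, mem_ball_self (by norm_num), ?_⟩, ?_⟩
  · rw [mem_preimage, ch_zero]; exact mem_ball_self one_pos
  refine contDiffOn_of_conj (g := fun u => F.ch x (L.e x u)) (Nq := F.Na T x) (W := ball 0 1) hO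
    (hgs.mono inter_subset_left)
    (fun u hu => F.der_inv x u hu.1) (fun u hu => hu.2) hN fun u hu => ?_
  rw [Aff.Na, dsc_ch F x (ball_subset_closedBall hu.1)]

/-- **row ALT** -/
theorem alt {L : Leaf Γ X B} [MeasurableSpace B] [BorelSpace B] {V : Type}
    [NormedAddCommGroup V] [NormedSpace ℝ V] [FiniteDimensional ℝ V] (P : Pic L V) : P.Alt := by
  intro h
  rcases H469.dichotomy P.S.T with hs | ⟨k₀, hR⟩
  · exact hs
  exfalso
  obtain ⟨x⟩ := L.nonempty
  have h2 : ∀ s, ContDiffOn ℝ ∞ (fun q => Pic.pr (P.Na x q) s) (ball 0 1) := h x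
  obtain ⟨O, hO, h3, hne, h4⟩ := piece P.Af P.S.T x (contDiffOn_of_pr h2)
  exact hR x O hO h3 hne (h4.of_le (by exact_mod_cast le_top))

end Vale.Agent.P207.N4.V.H467
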